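import Vale.Agent.P127.Final.GeoA

/-! # P127 Final/GeoB: choice of a non-null piece.  Helper names end with `_fb`.
`pdim_fb`: unfold, `iInf_lt_iff`; `r ^ (-s') ≤ r ^ (-(3 + s))`, replace `C` by `|C|`.
`geo_fin`: choose `e p` (`exists_slope`) for `‖p‖ ≤ 1`.  Pieces indexed by `(n, m, k, c) : ℕ × ℕ × ℤ × (Fin 3 → ℤ)`: `‖p‖ ≤ 1`, the line lies in `B n`,
`‖a (e p)‖ + 1 ≤ m`, `⌈4 * a (e p) 3⌉ = k`, `cell (1 / 4) (yy (k / 4) (a (e p)) p) = c`.  They cover `closedBall 0 1`, so one is not null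
(`measure_iUnion_null`).  `x p = 4 • (yy .. - corner)` (`cell_corner`), `K' = Phi h corner '' K` (`LipschitzWith.dimH_image_le`, `seg_phi`).
Count: send `p ∈ S` to a centre in `F`, `image_le_mul`; in a fibre `line_lip` with `ρ = 2 r`, then `cover` twice (image of a pair is in a product). -/

namespace Vale.Agent.P127

open Finset MeasureTheory
open scoped Classical

theorem pdim_fb {X : Type} [PseudoMetricSpace X] {A : Set X} (h : pdim A ≤ 3) {s : ℝ} (hs : 0 < s) :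
    ∃ B : ℕ → Set X, A ⊆ ⋃ n, B n ∧ ∀ n, ∃ C : ℝ, ∀ r : ℝ, 0 < r → r ≤ 1 → ∃ F : Finset X,
      (F.card : ℝ) ≤ C * r ^ (-(3 + s)) ∧ B n ⊆ ⋃ p ∈ F, Metric.closedBall p r := by
  have h1 : pdim A < ((3 + s.toNNReal : NNReal) : ENNReal) := by
    refine h.trans_lt ?_
    rw [ENNReal.coe_add]
    exact ENNReal.lt_add_right (by simp) (by simpa using hs)
  unfold pdim at h1
  simp only [iInf_lt_iff] at h1
  obtain ⟨B, hB, h2⟩ := h1
  refine ⟨B, hB, fun n => ?_⟩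
  have h3 := (le_iSup (fun n => ubd (B n)) n).trans_lt h2
  unfold ubd at h3
  simp only [iInf_lt_iff] at h3
  obtain ⟨s', ⟨C, hC⟩, h4⟩ := h3
  refine ⟨|C|, fun r hr hr1 => ?_⟩
  obtain ⟨F, h5, h6⟩ := hC r hr hr1
  refine ⟨F, h5.trans ?_, h6⟩
  have h7 : (s' : ℝ) ≤ 3 + s := by
    have h8 := NNReal.coe_lt_coe.2 (ENNReal.coe_lt_coe.1 h4)
    rw [NNReal.coe_add, Real.coe_toNNReal _ hs.le] at h8
    exact h8.le
  exact mul_le_mul (le_abs_self C) (Real.rpow_le_rpow_of_exponent_ge hr hr1 (by linarith))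
    (by positivity) (abs_nonneg C)

theorem pair_fb (S : Finset (V 3)) (x : V 3 → V 3) (q q' : V 3) {r A : ℝ} (hr : 0 < r) (hA : 0 ≤ A)
    (h : ∀ p ∈ S, ‖x p - q‖ ≤ A * r ∧ ‖p - q'‖ ≤ 16 * r) :
    ((S.image fun p => (cell r (x p), cell r p)).card : ℝ) ≤ (2 * A + 2) ^ 3 * 34 ^ 3 := by
  have h1 := cover S x q hr (by positivity) fun p hp => (h p hp).1
  have h2 := cover S (fun p => p) q' hr (by positivity) fun p hp => (h p hp).2
  have e1 : 2 * (A * r) / r + 2 = 2 * A + 2 := by field_simp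
  have e2 : 2 * (16 * r) / r + 2 = 34 := by field_simp; norm_num
  rw [Fintype.card_fin, e1] at h1
  rw [Fintype.card_fin, e2] at h2
  have h3 : (S.image fun p => (cell r (x p), cell r p)) ⊆
      (S.image fun p => cell r (x p)) ×ˢ (S.image fun p => cell r p) := by
    intro y hy
    obtain ⟨p, hp, rfl⟩ := mem_image.1 hy
    exact mem_product.2 ⟨mem_image_of_mem _ hp, mem_image_of_mem _ hp⟩
  refine (Nat.cast_le.2 (card_le_card h3)).trans ?_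
  rw [card_product, Nat.cast_mul]
  exact mul_le_mul h1 h2 (Nat.cast_nonneg _) (by positivity)

theorem img_fb {Ω β γ : Type} [i : DecidableEq γ] (E : Finset Ω) (f : Ω → β) (g : Ω → γ)
    (F : Finset β) (hf : ∀ ω ∈ E, f ω ∈ F) {M : ℝ} (hM : 0 ≤ M)
    (h : ∀ ω ∈ E, ∀ E' ⊆ E, (∀ ω' ∈ E', f ω' = f ω) → ((E'.image g).card : ℝ) ≤ M) :
    ((E.image g).card : ℝ) ≤ F.card * M := by
  obtain rfl : i = fun a b => Classical.propDecidable (a = b) := Subsingleton.elim _ _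
  exact (image_le_mul E f g fun ω hω => h ω hω _ (filter_subset _ _)
    fun _ hp => (mem_filter.1 hp).2).trans (mul_le_mul_of_nonneg_right
      (Nat.cast_le.2 (card_le_card (image_subset_iff.2 hf))) hM)

theorem geo_fin (K : Set E4) (a : Metric.sphere (0 : E4) 1 → E4)
    (hK : ∀ e, ∀ t ∈ Set.Icc (0 : ℝ) 1, a e + t • (e : E4) ∈ K)
    (hs : pdim (Set.range fun e => lineOf (a e) (e : E4)) ≤ 3) {s : ℝ} (hs0 : 0 < s) :
    ∃ U x K' C, Fam U x K' C s ∧ dimH K' ≤ dimH K := by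
  have he : ∀ p : V 3, ∃ e : Metric.sphere (0 : E4) 1, ‖p‖ ≤ 1 → Slope e p := fun p => by
    by_cases hp : ‖p‖ ≤ 1
    · obtain ⟨e, h⟩ := exists_slope hp
      exact ⟨e, fun _ => h⟩
    · obtain ⟨e, _⟩ := exists_slope (p := 0) (by simp)
      exact ⟨e, fun h => absurd h hp⟩
  choose e he using he
  obtain ⟨B, hB, hC⟩ := pdim_fb hs hs0
  obtain ⟨T, hT⟩ : ∃ T : ℕ × ℕ × ℤ × (Fin 3 → ℤ) → Set (V 3), ∀ i p, p ∈ T i ↔ ‖p‖ ≤ 1 ∧
      lineOf (a (e p)) (e p : E4) ∈ B i.1 ∧ ‖a (e p)‖ + 1 ≤ i.2.1 ∧ ⌈4 * a (e p) 3⌉ = i.2.2.1 ∧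
      cell (1 / 4) (yy (i.2.2.1 / 4) (a (e p)) p) = i.2.2.2 :=
    ⟨fun i => {p | _}, fun _ _ => Iff.rfl⟩
  have h1 : Metric.closedBall (0 : V 3) 1 ⊆ ⋃ i, T i := by
    intro p hp
    obtain ⟨n, hn⟩ := Set.mem_iUnion.1 (hB (Set.mem_range_self (e p)))
    exact Set.mem_iUnion.2 ⟨(n, ⌈‖a (e p)‖ + 1⌉₊, ⌈4 * a (e p) 3⌉,
      cell (1 / 4) (yy ((⌈4 * a (e p) 3⌉ : ℤ) / 4) (a (e p)) p)),
      (hT _ _).2 ⟨mem_closedBall_zero_iff.1 hp, hn, Nat.le_ceil _, rfl, rfl⟩⟩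
  obtain ⟨⟨n, m, k, c⟩, hi⟩ : ∃ i, volume (T i) ≠ 0 := by
    by_contra h
    exact (Metric.measure_closedBall_pos volume (0 : V 3) one_pos).ne'
      (measure_mono_null h1 (measure_iUnion_null fun i => not_not.1 fun h' => h ⟨i, h'⟩))
  obtain ⟨C, hC⟩ := hC n
  have hk : ∀ p ∈ T (n, m, k, c), a (e p) 3 ≤ (k : ℝ) / 4 ∧ (k : ℝ) / 4 ≤ a (e p) 3 + 1 / 4 := by
    intro p hp
    obtain ⟨_, _, _, h, _⟩ := (hT _ _).1 hp
    have h2 := Int.le_ceil (4 * a (e p) 3)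
    have h3 := Int.ceil_lt_add_one (4 * a (e p) 3)
    rw [h] at h2 h3
    constructor <;> linarith
  refine ⟨T (n, m, k, c), fun p => (4 : ℝ) • (yy (k / 4) (a (e p)) p - fun j => 1 / 4 * (c j : ℝ)),
    Phi (k / 4) (fun j => 1 / 4 * (c j : ℝ)) '' K,
    C * ((2 * (8 * (2 + 24 * m)) + 2) ^ 3 * 34 ^ 3),
    ⟨hi, fun p hp => ?_, fun p hp t ht => ?_, fun r hr hr1 S hS => ?_⟩,
    (phi_lip _ _).dimH_image_le K⟩
  · obtain ⟨h2, _, _, _, h3⟩ := (hT _ _).1 hp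
    refine ⟨h2, ?_⟩
    have h4 := cell_corner (r := 1 / 4) (by norm_num) (yy (k / 4) (a (e p)) p)
    rw [show cell (1 / 4) (yy (k / 4) (a (e p)) p) = c from h3] at h4
    rw [norm_smul, Real.norm_ofNat]
    linarith
  · obtain ⟨τ, hτ, h2⟩ := seg_phi (he p ((hT _ _).1 hp).1) (hk p hp).1 (hk p hp).2
      (fun j => 1 / 4 * (c j : ℝ)) ht
    exact ⟨_, hK (e p) τ hτ, h2⟩
  · obtain ⟨F, hF, hF'⟩ := hC r hr hr1
    have h2 : ∀ p : V 3, ∃ q, p ∈ S → q ∈ F ∧ dist (lineOf (a (e p)) (e p : E4)) q ≤ r := fun p => by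
      by_cases hp : p ∈ S
      · obtain ⟨q, hq, h⟩ := Set.mem_iUnion₂.1 (hF' ((hT _ _).1 (hS hp)).2.1)
        exact ⟨q, fun _ => ⟨hq, h⟩⟩
      · exact ⟨0, fun h => absurd h hp⟩
    choose f hf using h2
    refine (img_fb S f _ F (fun p hp => (hf p hp).1)
      (M := (2 * (8 * (2 + 24 * m)) + 2) ^ 3 * 34 ^ 3) (by positivity) fun ω hω S' hS' h4 =>
        pair_fb S' _ ((4 : ℝ) • (yy (k / 4) (a (e ω)) ω - fun j => 1 / 4 * (c j : ℝ))) ω hr
          (by positivity) fun p hp => ?_).trans ?_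
    · obtain ⟨h5, _, h6, _⟩ := (hT _ _).1 (hS hω)
      have h7 : |a (e ω) 3| ≤ ‖a (e ω)‖ := by simpa using PiLp.norm_apply_le (a (e ω)) 3
      have h8 : ‖a (e ω)‖ + 1 ≤ (m : ℝ) := h6
      have h9 := hk ω (hS hω)
      have hd : dist (lineOf (a (e p)) (e p : E4)) (lineOf (a (e ω)) (e ω : E4)) ≤ 2 * r := by
        have := dist_triangle_right (lineOf (a (e p)) (e p : E4)) (lineOf (a (e ω)) (e ω : E4))
          (f ω)
        have h10 := (hf p (hS' hp)).2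
        rw [h4 p hp] at h10
        linarith [(hf ω hω).2]
      obtain ⟨h10, h11⟩ := line_lip (he p ((hT _ _).1 (hS (hS' hp))).1) (he ω h5) (h := k / 4)
        (M := m) (by linarith) (abs_le.2 ⟨by linarith [(abs_le.1 h7).1],
          by linarith [(abs_le.1 h7).2]⟩) hd
      refine ⟨?_, by linarith⟩
      rw [← smul_sub, sub_sub_sub_cancel_right, norm_smul, Real.norm_ofNat]
      linarith
    · rw [mul_right_comm]
      exact mul_le_mul_of_nonneg_right hF (by positivity)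

end Vale.Agent.P127
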