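import Mathlib

/-! # P127 Final/Meas: dyadic covers of null sets, countable pigeonhole.  Helper names end with `_fm`.
`hcover_fin`: `Measure.hausdorffMeasure_apply`, radius `ofReal (1 / 2 ^ j0)`: a cover `t n` with `ediam ≤ 1 / 2 ^ j0` and
`∑ ediam ^ d < 1`.  `J n = Nat.findGreatest (fun j => diam (t n) ≤ 1 / 2 ^ j) (j0 + n) ≥ j0`; if `J n = j` then `n = j - j0` or
`1 / 2 ^ (j + 1) < diam (t n)`; every finite set of such `n` has at most `(2 ^ (j + 1)) ^ d` elements, so this set is finite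
(`Set.Finite.of_finset_card_le`-like: `Set.finite_of_forall_finset_card_le` or `Set.Infinite.exists_subset_card_eq`).
`Q j` = image of `{n | J n = j, t n nonempty}` under a choice of a point of `t n`.
`pigeon_fin`: otherwise `μ s ≤ ∑ k, μ (A (j0 + k)) ≤ ∑ k, ofReal (ρ ^ (j0 + k)) * μ s = ofReal (ρ ^ j0 / (1 - ρ)) * μ s < μ s`. -/

namespace Vale.Agent.P127

open MeasureTheory

theorem card_fm {X : Type} [MetricSpace X] {t : ℕ → Set X} {d c : ℝ} (hd : 0 < d) (hc : 0 < c)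
    (h : ∑' n, ⨆ _ : (t n).Nonempty, Metric.ediam (t n) ^ d < 1) (F : Finset ℕ)
    (hF : ∀ n ∈ F, 1 / c < Metric.diam (t n)) : (F.card : ℝ) ≤ c ^ d := by
  have h0 : 0 < 1 / c := by positivity
  have h1 : ∀ n ∈ F, ENNReal.ofReal ((1 / c) ^ d) ≤
      ⨆ _ : (t n).Nonempty, Metric.ediam (t n) ^ d := by
    intro n hn
    have h2 : (t n).Nonempty := by
      by_contra h3
      have h4 := hF n hn
      rw [Set.not_nonempty_iff_eq_empty.1 h3, Metric.diam_empty] at h4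
      linarith
    rw [iSup_pos h2, ← ENNReal.ofReal_rpow_of_pos h0]
    exact ENNReal.rpow_le_rpow (ENNReal.ofReal_le_of_le_toReal (hF n hn).le) hd.le
  have h2 := (Finset.card_nsmul_le_sum F _ _ h1).trans ((ENNReal.sum_le_tsum F).trans h.le)
  rw [nsmul_eq_mul, ← ENNReal.ofReal_natCast, ← ENNReal.ofReal_mul (Nat.cast_nonneg _),
    ENNReal.ofReal_le_one, Real.div_rpow zero_le_one hc.le, Real.one_rpow, mul_one_div,
    div_le_one (Real.rpow_pos_of_pos hc d)] at h2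
  exact h2

theorem fin_fm {B : Set ℕ} {M : ℝ} (h : ∀ F : Finset ℕ, (∀ n ∈ F, n ∈ B) → (F.card : ℝ) ≤ M) :
    B.Finite := by
  by_contra h1
  obtain ⟨k, hk⟩ := exists_nat_gt M
  obtain ⟨F, h2, h3⟩ := Set.Infinite.exists_subset_card_eq h1 k
  have h4 := h F fun n hn => h2 hn
  rw [h3] at h4
  linarith

theorem hcover_fin {X : Type} [MetricSpace X] [MeasurableSpace X] [BorelSpace X] {K : Set X} {d : ℝ}
    (hd : 0 < d) (h : μH[d] K = 0) (j0 : ℕ) : ∃ Q : ℕ → Finset X,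
      (∀ j, ((Q j).card : ℝ) ≤ (2 ^ d + 1) * ((2 : ℝ) ^ j) ^ d) ∧
      ∀ w ∈ K, ∃ j ≥ j0, ∃ q ∈ Q j, dist w q ≤ 1 / (2 : ℝ) ^ j := by
  classical
  rcases K.eq_empty_or_nonempty with rfl | ⟨w0, -⟩
  · exact ⟨fun _ => ∅, fun j => by simp only [Finset.card_empty, Nat.cast_zero]; positivity,
      fun w hw => absurd hw (Set.notMem_empty w)⟩
  have : Nonempty X := ⟨w0⟩
  have hr : 0 < ENNReal.ofReal (1 / (2 : ℝ) ^ j0) := ENNReal.ofReal_pos.2 (by positivity)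
  rw [Measure.hausdorffMeasure_apply] at h
  have h1 := ((le_iSup₂_of_le _ hr le_rfl).trans h.le).trans_lt zero_lt_one
  simp only [iInf_lt_iff] at h1
  obtain ⟨t, a1, a2, a3⟩ := h1
  choose! pt hpt using fun n (h : (t n).Nonempty) => h
  have b1 : ∀ j : ℕ, ∀ F : Finset ℕ, (∀ n ∈ F, n ∈ {n | 1 / (2 : ℝ) ^ (j + 1) < Metric.diam (t n)}) →
      (F.card : ℝ) ≤ ((2 : ℝ) ^ (j + 1)) ^ d := fun j F hF => card_fm hd (by positivity) a3 F hF
  have b2 := fun j => fin_fm (b1 j)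
  refine ⟨fun j => (insert (j - j0) (b2 j).toFinset).image pt, fun j => ?_, fun w hw => ?_⟩
  · have c1 := b1 j (b2 j).toFinset fun n hn => (b2 j).mem_toFinset.1 hn
    have c2 : (((insert (j - j0) (b2 j).toFinset).image pt).card : ℝ) ≤ (b2 j).toFinset.card + 1 := by
      exact_mod_cast Finset.card_image_le.trans (Finset.card_insert_le _ _)
    have c3 : (1 : ℝ) ≤ ((2 : ℝ) ^ j) ^ d := Real.one_le_rpow (one_le_pow₀ one_le_two) hd.le
    have c4 : ((2 : ℝ) ^ (j + 1)) ^ d = ((2 : ℝ) ^ j) ^ d * 2 ^ d := by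
      rw [pow_succ, Real.mul_rpow (by positivity) zero_le_two]
    linarith
  · obtain ⟨n, hn⟩ := Set.mem_iUnion.1 (a1 hw)
    have c0 : Metric.diam (t n) ≤ 1 / (2 : ℝ) ^ j0 :=
      ENNReal.toReal_le_of_le_ofReal (by positivity) (a2 n)
    set J := Nat.findGreatest (fun j => Metric.diam (t n) ≤ 1 / (2 : ℝ) ^ j) (j0 + n) with hJ
    have c1 : j0 ≤ J := Nat.le_findGreatest (Nat.le_add_right _ _) c0
    have c2 : Metric.diam (t n) ≤ 1 / (2 : ℝ) ^ J :=
      Nat.findGreatest_spec (P := fun j => Metric.diam (t n) ≤ 1 / (2 : ℝ) ^ j)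
        (Nat.le_add_right _ _) c0
    have c3 : J ≤ j0 + n := Nat.findGreatest_le _
    refine ⟨J, c1, pt n, Finset.mem_image_of_mem _ (Finset.mem_insert.2 ?_),
      (Metric.dist_le_diam_of_mem' (ne_top_of_le_ne_top ENNReal.ofReal_ne_top (a2 n)) hn
        (hpt n ⟨w, hn⟩)).trans c2⟩
    rcases c3.lt_or_eq with c4 | c4
    · exact Or.inr ((b2 J).mem_toFinset.2 (not_le.1 (Nat.findGreatest_is_greatest
        (P := fun j => Metric.diam (t n) ≤ 1 / (2 : ℝ) ^ j) (Nat.lt_succ_self _) c4)))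
    · exact Or.inl (by omega)

theorem pigeon_fin {X : Type} [MeasurableSpace X] (μ : Measure X) {s : Set X} {A : ℕ → Set X}
    {ρ : ℝ} {j0 : ℕ} (h0 : 0 < ρ) (h1 : ρ ^ j0 < 1 - ρ) (hs0 : μ s ≠ 0) (hs : μ s ≠ ⊤)
    (hA : ∀ y ∈ s, ∃ j ≥ j0, y ∈ A j) : ∃ j ≥ j0, ENNReal.ofReal (ρ ^ j) * μ s ≤ μ (A j) := by
  by_contra hc
  push Not at hc
  have h2 : 0 < ρ ^ j0 := pow_pos h0 _
  have h3 : ρ < 1 := by linarith
  have h4 : s ⊆ ⋃ k, A (j0 + k) := fun y hy => by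
    obtain ⟨j, a1, a2⟩ := hA y hy
    obtain ⟨k, rfl⟩ := Nat.exists_eq_add_of_le a1
    exact Set.mem_iUnion.2 ⟨k, a2⟩
  have h5 : ∑' k, ENNReal.ofReal (ρ ^ (j0 + k)) = ENNReal.ofReal (ρ ^ j0 * (1 - ρ)⁻¹) := by
    simp only [pow_add]
    rw [← ENNReal.ofReal_tsum_of_nonneg (fun k => by positivity)
      ((summable_geometric_of_lt_one h0.le h3).mul_left _), tsum_mul_left,
      tsum_geometric_of_lt_one h0.le h3]
  have h6 : ENNReal.ofReal (ρ ^ j0 * (1 - ρ)⁻¹) < 1 := by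
    rw [ENNReal.ofReal_lt_one, ← div_eq_mul_inv, div_lt_one (by linarith)]
    exact h1
  have h7 := ((measure_mono h4).trans (measure_iUnion_le _)).trans
    (ENNReal.tsum_le_tsum fun k => (hc (j0 + k) (Nat.le_add_right _ _)).le)
  rw [ENNReal.tsum_mul_right, h5] at h7
  have h8 := ENNReal.mul_lt_mul_left hs0 hs h6
  rw [one_mul] at h8
  exact absurd h7 (not_le.2 h8)

end Vale.Agent.P127
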