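import Vale.Agent.P127.Final.Disc
import Vale.Agent.P127.Final.Meas

/-! # P127 Final/Core (helper63): a family of segments is not null. -/

namespace Vale.Agent.P127

open Finset MeasureTheory
open scoped Classical

theorem core_fin (hP : PK 3 0) {d : ℝ} (hd0 : 0 < d) (hd : d < 4) : ∃ s > (0 : ℝ),
    ∀ U x K' C, Fam U x K' C s → μH[d] K' ≠ 0 := by
  obtain ⟨ε, hε, hde⟩ : ∃ ε > (0 : ℝ), 4 - ε = ε + d := ⟨(4 - d) / 2, by linarith, by ring⟩
  obtain ⟨s, hs, hD⟩ := disc_fin hP hε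
  refine ⟨s, hs, fun U x K' C hF h0 => ?_⟩
  have hU : volume U ≠ ⊤ := ((measure_mono fun p hp => mem_closedBall_zero_iff.2
    (hF.bd p hp).1).trans_lt MeasureTheory.measure_closedBall_lt_top).ne
  have hl : 0 < (volume U).toReal := ENNReal.toReal_pos hF.pos hU
  obtain ⟨N0, hN0⟩ := hD (max C (8 / (volume U).toReal))
  have r0 : (0 : ℝ) < 2 ^ (-s) := Real.rpow_pos_of_pos two_pos _
  have r1 : (2 : ℝ) ^ (-s) < 1 := Real.rpow_lt_one_of_one_lt_of_neg one_lt_two (neg_lt_zero.2 hs)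
  have t2 : Filter.Tendsto (fun j : ℕ => (2 : ℝ) ^ j) Filter.atTop Filter.atTop :=
    tendsto_pow_atTop_atTop_of_one_lt one_lt_two
  obtain ⟨j0, hj0⟩ := Filter.eventually_atTop.1
    ((((tendsto_pow_atTop_nhds_zero_of_lt_one r0.le r1).eventually
      (gt_mem_nhds (sub_pos.2 r1))).and (t2.eventually (Filter.eventually_ge_atTop N0))).and
      (((tendsto_rpow_atTop hε).comp t2).eventually
        (Filter.eventually_gt_atTop (1296 * (2 ^ d + 1)))))
  obtain ⟨Q, hQ, hc⟩ := hcover_fin hd0 h0 j0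
  obtain ⟨j, hj, hm⟩ := pigeon_fin volume (A := fun j => {p ∈ U | ENNReal.ofReal ((2 ^ (-s)) ^ j) ≤
      volume (covd (Q j) (1 / 2 ^ j) (x p) p)}) r0 (hj0 j0 le_rfl).1.1 hF.pos hU fun p hp => by
    obtain ⟨j, hj, h⟩ := pigeon_fin volume (s := Set.Icc (0 : ℝ) 1)
      (A := fun j => covd (Q j) (1 / 2 ^ j) (x p) p) r0 (hj0 j0 le_rfl).1.1 (by simp) (by simp)
      fun t ht => (hc _ (hF.seg p hp t ht)).imp fun j h => ⟨h.1, ht, h.2⟩
    exact ⟨j, hj, hp, by simpa using h⟩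
  have n0 : (0 : ℝ) < 2 ^ j := by positivity
  have e1 : ((2 : ℝ) ^ (-s)) ^ j = (2 ^ j) ^ (-s) := by
    rw [← Real.rpow_natCast, ← Real.rpow_natCast, ← Real.rpow_mul zero_le_two,
      ← Real.rpow_mul zero_le_two, mul_comm]
  obtain ⟨L, e, h1, h2, h3⟩ := net_fin (U := {p ∈ U | ENNReal.ofReal ((2 ^ (-s)) ^ j) ≤
      volume (covd (Q j) (1 / 2 ^ j) (x p) p)}) (fun p hp => (hF.bd p hp.1).1) (one_div_pos.2 n0)
  have h4 := hN0 (2 ^ j) (by simpa using (hj0 j hj).1.2) L (fun i => x (e i)) e (Q j)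
  simp only [Nat.cast_pow, Nat.cast_ofNat] at h4
  have h5 := h4 (fun i hi => (hF.bd _ (h1 i hi).1).symm) h2 ?_ (fun i hi => e1 ▸ (h1 i hi).2)
    fun r a0 a1 => ?_
  · have h6 := (hj0 j hj).2
    simp only [Function.comp_apply] at h6
    rw [hde, Real.rpow_add n0] at h5
    have h7 := mul_lt_mul_of_pos_right h6 (Real.rpow_pos_of_pos n0 d)
    linarith [hQ j]
  · have h6 := ENNReal.toReal_mono ENNReal.ofReal_ne_top (hm.trans h3)
    rw [ENNReal.toReal_mul, ENNReal.toReal_ofReal (by positivity),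
      ENNReal.toReal_ofReal (by positivity), e1, Real.rpow_neg n0.le] at h6
    have p0 : (0 : ℝ) < (2 ^ j) ^ s := Real.rpow_pos_of_pos n0 s
    refine le_trans ?_ (mul_le_mul_of_nonneg_right (mul_le_mul_of_nonneg_right
      (le_max_right _ _) p0.le) (Nat.cast_nonneg _))
    generalize (2 : ℝ) ^ j = N at *
    rw [inv_mul_le_iff₀ p0] at h6
    have h7 := mul_le_mul_of_nonneg_right h6 (pow_pos n0 3).le
    have h8 : N ^ s * (L.card * (2 * (1 / N)) ^ 3) * N ^ 3 = 8 * N ^ s * L.card := by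
      field_simp
      ring
    rw [div_mul_eq_mul_div, div_mul_eq_mul_div, le_div_iff₀ hl]
    linarith
  · have h6 := hF.cnt r a0 a1 (L.image e) fun p hp => by
      obtain ⟨i, hi, rfl⟩ := mem_image.1 (mem_coe.1 hp)
      exact (h1 i hi).1
    rw [image_image] at h6
    exact h6.trans (mul_le_mul_of_nonneg_right (le_max_left _ _) (Real.rpow_nonneg a0.le _))

end Vale.Agent.P127
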