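import Vale.Agent.P127.Comb

/-! # P127 Final/Defs: notions used in block Final (owner helper63, no task). -/

namespace Vale.Agent.P127

open MeasureTheory
open scoped Classical

noncomputable section

abbrev E4 : Type := EuclideanSpace ℝ (Fin 4)

/-- heights at which the line is within `r` of a point of `Q` -/
def covd (Q : Finset (ℝ × V 3)) (r : ℝ) (x e : V 3) : Set ℝ :=
  {t | t ∈ Set.Icc (0 : ℝ) 1 ∧ ∃ q ∈ Q, dist (t, x + t • e) q ≤ r}

/-- a family of segments in `K'`, one for each slope in `U`, with a covering bound -/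
structure Fam (U : Set (V 3)) (x : V 3 → V 3) (K' : Set (ℝ × V 3)) (C s : ℝ) : Prop where
  pos : volume U ≠ 0
  bd : ∀ p ∈ U, ‖p‖ ≤ 1 ∧ ‖x p‖ ≤ 1
  seg : ∀ p ∈ U, ∀ t ∈ Set.Icc (0 : ℝ) 1, (t, x p + t • p) ∈ K'
  cnt : ∀ r : ℝ, 0 < r → r ≤ 1 → ∀ S : Finset (V 3), ↑S ⊆ U →
    ((S.image fun p => (cell r (x p), cell r p)).card : ℝ) ≤ C * r ^ (-(3 + s))

/-- the unit vector `e` has slope `p` -/
def Slope (e : E4) (p : V 3) : Prop :=
  ‖e‖ = 1 ∧ ‖p‖ ≤ 1 ∧ 1 / 2 ≤ e 3 ∧ ∀ j : Fin 3, e j.castSucc = p j * e 3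

/-- position at height `h` of the line through `a` with slope `p` -/
def yy (h : ℝ) (a : E4) (p : V 3) : V 3 := fun j => a j.castSucc + (h - a 3) * p j

/-- graph coordinates, translated and dilated -/
def Phi (h : ℝ) (c : V 3) (w : E4) : ℝ × V 3 := (4 * (w 3 - h), fun j => 4 * (w j.castSucc - c j))

end

end Vale.Agent.P127
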