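import Vale.Agent.P127.Final.Defs

/-! # P127 Final/Net: nets of slopes, the grid of heights.  Helper names end with `_fn`.
`net_fin`: the set of cells meeting `U` is finite (subset of a `Fintype.piFinset` of intervals); choose a point in each cell and
an injection of the cells into `ℕ`; `U` is covered by the closed balls of radius `r` (`cell_close`, `Real.volume_pi_closedBall`).
`grid_fin`: `cz (1 / n)` is injective on the grid, `cover_z`.  `shade_fin`: `A` is covered by the intervals of radius `1 / n` around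
the grid points of the filter (`z = ⌊t n⌋₊ / n`). -/

namespace Vale.Agent.P127

open Finset MeasureTheory
open scoped Classical

theorem net_fin {U : Set (V 3)} (hU : ∀ p ∈ U, ‖p‖ ≤ 1) {r : ℝ} (hr : 0 < r) :
    ∃ (L : Finset ℕ) (e : ℕ → V 3), (∀ i ∈ L, e i ∈ U) ∧ Set.InjOn (fun i => cell r (e i)) L ∧
      volume U ≤ ENNReal.ofReal (L.card * (2 * r) ^ 3) := by
  have hT : (cell r '' U).Finite := by
    refine (Fintype.piFinset fun _ : Fin 3 => Icc (cz r (0 - 1)) (cz r (0 + 1))).finite_toSet.subset ?_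
    rintro _ ⟨p, hp, rfl⟩
    refine mem_coe.2 (Fintype.mem_piFinset.2 fun j => mem_icc_comb (x := p j) hr ?_)
    rw [sub_zero]
    exact (norm_le_pi_norm p j).trans (hU p hp)
  have h1 : ∀ i ∈ hT.toFinset.image Encodable.encode,
      ∃ p ∈ U, Encodable.encode (cell r p) = i := fun i hi => by
    obtain ⟨_, h2, rfl⟩ := mem_image.1 hi
    obtain ⟨p, hp, rfl⟩ := hT.mem_toFinset.1 h2
    exact ⟨p, hp, rfl⟩
  choose! e e1 e2 using h1
  refine ⟨_, e, e1, fun i hi j hj h => ?_, ?_⟩
  · rw [← e2 i hi, ← e2 j hj]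
    exact congrArg _ h
  · have h2 : U ⊆ ⋃ i ∈ hT.toFinset.image Encodable.encode, Metric.closedBall (e i) r := by
      intro p hp
      have h3 : Encodable.encode (cell r p) ∈ hT.toFinset.image Encodable.encode :=
        mem_image_of_mem _ (hT.mem_toFinset.2 ⟨p, hp, rfl⟩)
      refine Set.mem_biUnion h3 ?_
      rw [mem_closedBall_iff_norm]
      exact cell_close hr (Encodable.encode_injective (e2 _ h3)).symm
    refine (measure_mono h2).trans ((measure_biUnion_finset_le _ _).trans (le_of_eq ?_))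
    simp only [Real.volume_pi_closedBall _ hr.le, sum_const, Fintype.card_fin, nsmul_eq_mul]
    rw [ENNReal.ofReal_mul (Nat.cast_nonneg _), ENNReal.ofReal_natCast]

/-- the grid of heights -/
noncomputable def grid (n : ℕ) : Finset ℝ := (range (n + 1)).image fun k : ℕ => (k : ℝ) / n

theorem grid_mem {n : ℕ} {z : ℝ} (hz : z ∈ grid n) : 0 ≤ z ∧ z ≤ 1 := by
  obtain ⟨k, hk, rfl⟩ := mem_image.1 hz
  have h : (k : ℝ) ≤ n := Nat.cast_le.2 (Nat.lt_succ_iff.1 (mem_range.1 hk))
  exact ⟨by positivity, div_le_one_of_le₀ h (Nat.cast_nonneg n)⟩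

theorem cz_fn {n : ℕ} (hn : 0 < n) (k : ℕ) : cz (1 / n) ((k : ℝ) / n) = k := by
  have h : (n : ℝ) ≠ 0 := by positivity
  have e : (k : ℝ) / n / (1 / n) = k := by field_simp
  rw [cz, e, Int.floor_natCast]

theorem grid_fin {n : ℕ} (hn : 0 < n) (a : ℝ) {r : ℝ} (hr : 0 ≤ r) :
    (((grid n).filter fun z => |z - a| ≤ r).card : ℝ) ≤ 2 * r * n + 2 := by
  have h := cover_z ((grid n).filter fun z => |z - a| ≤ r) (fun z => z) a
    (β := 1 / n) (by positivity) hr fun z hz => (mem_filter.1 hz).2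
  rw [card_image_of_injOn, div_div_eq_mul_div, div_one] at h
  · exact h
  · intro z hz z' hz' e
    obtain ⟨k, -, rfl⟩ := mem_image.1 (mem_filter.1 hz).1
    obtain ⟨k', -, rfl⟩ := mem_image.1 (mem_filter.1 hz').1
    simp only [cz_fn hn, Nat.cast_inj] at e
    rw [e]

theorem shade_fin {n : ℕ} (hn : 0 < n) {A : Set ℝ} (hA : A ⊆ Set.Icc 0 1) {w : ℝ}
    (hw : ENNReal.ofReal w ≤ volume A) :
    w * n ≤ 2 * (((grid n).filter fun z => ∃ t ∈ A, |t - z| ≤ 1 / (n : ℝ)).card : ℝ) := by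
  have hn' : (0 : ℝ) < n := by positivity
  set F := (grid n).filter fun z => ∃ t ∈ A, |t - z| ≤ 1 / (n : ℝ) with hF
  have h2 : A ⊆ ⋃ z ∈ F, Metric.closedBall z (1 / n) := by
    intro t ht
    have a0 : 0 ≤ t * n := mul_nonneg (hA ht).1 hn'.le
    have a1 := Nat.floor_le a0
    have a2 := Nat.lt_floor_add_one (t * n)
    have a3 : |t - (⌊t * n⌋₊ : ℝ) / n| ≤ 1 / n := by
      have e : t - (⌊t * n⌋₊ : ℝ) / n = (t * n - ⌊t * n⌋₊) / n := by field_simp
      rw [e, abs_div, abs_of_pos hn', abs_of_nonneg (by linarith)]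
      exact div_le_div_of_nonneg_right (by linarith) hn'.le
    have a4 : ⌊t * n⌋₊ ≤ n := Nat.floor_le_of_le (mul_le_of_le_one_left hn'.le (hA ht).2)
    have a5 : (⌊t * n⌋₊ : ℝ) / n ∈ F :=
      mem_filter.2 ⟨mem_image.2 ⟨_, mem_range.2 (Nat.lt_succ_of_le a4), rfl⟩, t, ht, a3⟩
    exact Set.mem_biUnion a5 a3
  have h3 := hw.trans ((measure_mono h2).trans (measure_biUnion_finset_le _ _))
  simp only [Real.volume_closedBall, sum_const, nsmul_eq_mul] at h3
  rw [← ENNReal.ofReal_natCast, ← ENNReal.ofReal_mul (Nat.cast_nonneg _),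
    ENNReal.ofReal_le_ofReal_iff (by positivity)] at h3
  have e : (F.card : ℝ) * (2 * (1 / n)) * n = 2 * F.card := by field_simp
  rw [← e]
  exact mul_le_mul_of_nonneg_right h3 hn'.le

end Vale.Agent.P127
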