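import Vale.Agent.P127.Zoom
import Vale.Agent.P127.Final.Net

/-! # P127 Final/Disc: the discrete step.  Helper names end with `_fd`.
`N = n`, `c = ⟨L, x, e, grid n, E, N ^ 3⟩`, `E = {(i, z) ∈ L ×ˢ grid n | ∃ t ∈ covd Q (1 / N) (x i) (e i), |t - z| ≤ 1 / N}`.
`pre_fd`: `hts` by `grid_fin`, `dirs` by `cover` and injectivity (`(2 r N + 2) ^ 3 ≤ 64 r ^ 3 N ^ 3`), `mass` by `shade_fin` fibrewise.
`cnt_fd`: every `ω ∈ E` has `q ∈ Q` with `|z - q.1| ≤ 2 / N`, `‖pos ω - q.2‖ ≤ 2 / N`; `image_le_mul`, `grid_fin` (6 heights), `cover` (6 ^ 3 cells).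
`disc_fin`: `η, N0` from `hP ε`, `Cl` from `loc 3`; `K = N ^ (3 s)` with `12 s ≤ η / 2`; `big` gives `64 + 2 |C| ≤ N ^ s` and
`Cl (logb 2 N + 2) ≤ N ^ (η / 2)`; `loc`, `Good.mono`, `hP`, `cnt_fd` (`r ^ (-(3 + s)) ≤ N ^ s / r ^ 3` for `1 / N ≤ r`). -/

namespace Vale.Agent.P127

open Finset MeasureTheory
open scoped Classical

/-- the discretised configuration -/
noncomputable def cfgF (n : ℕ) (L : Finset ℕ) (x e : ℕ → V 3) (Q : Finset (ℝ × V 3)) : Cfg 3 :=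
  ⟨L, x, e, grid n, (L ×ˢ grid n).filter fun ω =>
    ∃ t ∈ covd Q (1 / (n : ℝ)) (x ω.1) (e ω.1), |t - ω.2| ≤ 1 / (n : ℝ), (n : ℝ) ^ 3⟩

theorem pre_fd {n : ℕ} (hn : 0 < n) {L : Finset ℕ} {x e : ℕ → V 3} {Q : Finset (ℝ × V 3)} {w K B : ℝ}
    (hb : ∀ i ∈ L, ‖x i‖ ≤ 1 ∧ ‖e i‖ ≤ 1) (hi : Set.InjOn (fun i => cell (1 / (n : ℝ)) (e i)) L)
    (hL : (n : ℝ) ^ 3 ≤ B * L.card) (hw : 0 < w)
    (hc : ∀ i ∈ L, ENNReal.ofReal w ≤ volume (covd Q (1 / (n : ℝ)) (x i) (e i)))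
    (hK : 64 ≤ K) (hK' : 2 * B ≤ K * w) : Pre (cfgF n L x e Q) n n K := by
  have n1 : (1 : ℝ) ≤ n := Nat.one_le_cast.2 hn
  have n0 : (0 : ℝ) < n := by linarith
  refine ⟨filter_subset _ _, pow_pos n0 3, fun i h => (hb i h).1, fun i h => (hb i h).2,
    fun z h => grid_mem h, fun a r hr => ?_, fun p r hr => ?_, ?_⟩
  · have h1 : 1 ≤ r * n := (div_le_iff₀ n0).1 hr
    refine (grid_fin hn a ((one_div_pos.2 n0).le.trans hr)).trans ?_
    rw [mul_assoc, mul_assoc]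
    nlinarith
  · have h1 : 1 ≤ r * n := (div_le_iff₀ n0).1 hr
    have h2 := cover (L.filter fun i => ‖e i - p‖ ≤ r) e p (one_div_pos.2 n0)
      ((one_div_pos.2 n0).le.trans hr) fun i h => (mem_filter.1 h).2
    rw [card_image_of_injOn (hi.mono (coe_subset.2 (filter_subset _ _))), Fintype.card_fin,
      div_div_eq_mul_div, div_one] at h2
    refine h2.trans ((pow_le_pow_left₀ (b := 4 * (r * n)) (by linarith) (by linarith) 3).trans ?_)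
    show _ ≤ K * r ^ 3 * (n : ℝ) ^ 3
    rw [mul_assoc, ← mul_pow, mul_pow]
    exact mul_le_mul_of_nonneg_right (by linarith) (by positivity)
  · have h1 : (L.card : ℝ) * (w * n / 2) ≤ (cfgF n L x e Q).E.card := by
      rw [← nsmul_eq_mul, card_eq_sum_card_fiberwise (f := Prod.fst) (t := L)
        (s := (cfgF n L x e Q).E) fun ω h => (mem_product.1 (mem_filter.1 h).1).1, Nat.cast_sum]
      refine card_nsmul_le_sum _ _ _ fun i h => ?_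
      have h2 := shade_fin hn (fun t ht => ht.1) (hc i h)
      rw [div_le_iff₀' two_pos]
      refine h2.trans (mul_le_mul_of_nonneg_left (Nat.cast_le.2 (card_le_card_of_injOn
        (fun z => (i, z)) (fun z hz => ?_) fun z _ z' _ e => congrArg Prod.snd e)) zero_le_two)
      obtain ⟨a1, a2⟩ := mem_filter.1 (mem_coe.1 hz)
      exact mem_coe.2 (mem_filter.2 ⟨mem_filter.2 ⟨mem_product.2 ⟨h, a1⟩, a2⟩, rfl⟩)
    refine le_trans ?_ h1
    show (n : ℝ) ^ 3 * n / K ≤ _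
    rw [div_le_iff₀ (by linarith)]
    have h3 := mul_le_mul_of_nonneg_right hK' (Nat.cast_nonneg (α := ℝ) L.card)
    have h4 : (n : ℝ) ^ 3 ≤ L.card * (w / 2) * K := by linarith
    have h5 := mul_le_mul_of_nonneg_right h4 n0.le
    linarith

theorem cnt_fd {n : ℕ} (hn : 0 < n) {L : Finset ℕ} {x e : ℕ → V 3} {Q : Finset (ℝ × V 3)}
    (hb : ∀ i ∈ L, ‖e i‖ ≤ 1) {E' : Finset (ℕ × ℝ)} (hE : E' ⊆ (cfgF n L x e Q).E) :
    ((E'.image fun ω => (ω.2, cell (1 / (n : ℝ)) (x ω.1 + ω.2 • e ω.1))).card : ℝ) ≤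
      1296 * Q.card := by
  have n0 : (0 : ℝ) < n := Nat.cast_pos.2 hn
  have i0 := one_div_pos.2 n0
  have k : ∀ ω ∈ E', ∃ q ∈ Q, |ω.2 - q.1| ≤ 2 / n ∧ ‖x ω.1 + ω.2 • e ω.1 - q.2‖ ≤ 2 / n := by
    intro ω hω
    obtain ⟨h1, t, ⟨-, q, hq, h2⟩, h3⟩ := mem_filter.1 (hE hω)
    rw [Prod.dist_eq, max_le_iff, Real.dist_eq, dist_eq_norm] at h2
    have e2 : (2 : ℝ) / n = 1 / n + 1 / n := by ring
    refine ⟨q, hq, ?_, ?_⟩
    · have := abs_sub_le ω.2 t q.1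
      rw [abs_sub_comm ω.2 t] at this
      linarith [h2.1]
    · have e1 : x ω.1 + ω.2 • e ω.1 - q.2 = x ω.1 + t • e ω.1 - q.2 - (t - ω.2) • e ω.1 := by
        rw [sub_smul]
        abel
      rw [e1]
      refine (norm_sub_le _ _).trans ?_
      rw [norm_smul, Real.norm_eq_abs]
      have := mul_le_mul h3 (hb _ (mem_product.1 h1).1) (norm_nonneg _) i0.le
      linarith [h2.2]
  choose! f hf h1 h2 using k
  have e1 : 2 * (2 / (n : ℝ)) * n + 2 = 6 := by field_simp; norm_num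
  have e2 : 2 * (2 / (n : ℝ)) / (1 / n) + 2 = 6 := by field_simp; norm_num
  have hZ : ∀ ω ∈ E', ω.2 ∈ grid n := fun ω h => (mem_product.1 (mem_filter.1 (hE h)).1).2
  have k2 : ∀ (F : Finset (ℕ × ℝ)) (q : ℝ × V 3), (∀ ω ∈ F, ω ∈ E' ∧ f ω = q) →
      ((F.image fun ω => (ω.2, cell (1 / (n : ℝ)) (x ω.1 + ω.2 • e ω.1))).card : ℝ) ≤ 1296 := by
    intro F q hF
    have s1 : (F.image fun ω => (ω.2, cell (1 / (n : ℝ)) (x ω.1 + ω.2 • e ω.1))) ⊆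
        ((grid n).filter fun z => |z - q.1| ≤ 2 / n) ×ˢ
          (F.image fun ω => cell (1 / (n : ℝ)) (x ω.1 + ω.2 • e ω.1)) := by
      intro y hy
      obtain ⟨ω, hω, rfl⟩ := mem_image.1 hy
      obtain ⟨a1, rfl⟩ := hF ω hω
      exact mem_product.2 ⟨mem_filter.2 ⟨hZ _ a1, h1 _ a1⟩, mem_image_of_mem _ hω⟩
    have s2 := grid_fin hn q.1 (r := 2 / n) (by positivity)
    have s3 := cover F (fun ω => x ω.1 + ω.2 • e ω.1) q.2 i0 (ρ := 2 / n) (by positivity)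
      fun ω h => by
        obtain ⟨a1, rfl⟩ := hF ω h
        exact h2 _ a1
    rw [e1] at s2
    rw [e2, Fintype.card_fin] at s3
    refine (Nat.cast_le.2 (card_le_card s1)).trans ?_
    rw [card_product, Nat.cast_mul]
    exact (mul_le_mul s2 s3 (Nat.cast_nonneg _) (by norm_num)).trans_eq (by norm_num)
  have k3 : (E'.image fun ω => (ω.2, cell (1 / (n : ℝ)) (x ω.1 + ω.2 • e ω.1))) ⊆
      Q.biUnion fun q => (E'.filter fun ω => f ω = q).image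
        fun ω => (ω.2, cell (1 / (n : ℝ)) (x ω.1 + ω.2 • e ω.1)) := by
    intro y hy
    obtain ⟨ω, hω, rfl⟩ := mem_image.1 hy
    exact mem_biUnion.2 ⟨f ω, hf ω hω, mem_image_of_mem _ (mem_filter.2 ⟨hω, rfl⟩)⟩
  refine (Nat.cast_le.2 ((card_le_card k3).trans card_biUnion_le)).trans ?_
  rw [Nat.cast_sum, mul_comm, ← nsmul_eq_mul]
  exact sum_le_card_nsmul _ _ _ fun q _ => k2 _ q fun ω h => mem_filter.1 h

theorem disc_fin (hP : PK 3 0) {ε : ℝ} (hε : 0 < ε) : ∃ s > (0 : ℝ), ∀ C : ℝ, ∃ N0 : ℝ, ∀ n : ℕ,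
    N0 ≤ n → ∀ (L : Finset ℕ) (x e : ℕ → V 3) (Q : Finset (ℝ × V 3)),
      (∀ i ∈ L, ‖x i‖ ≤ 1 ∧ ‖e i‖ ≤ 1) → Set.InjOn (fun i => cell (1 / (n : ℝ)) (e i)) L →
      (n : ℝ) ^ 3 ≤ C * (n : ℝ) ^ s * L.card →
      (∀ i ∈ L, ENNReal.ofReal ((n : ℝ) ^ (-s)) ≤ volume (covd Q (1 / (n : ℝ)) (x i) (e i))) →
      (∀ r : ℝ, 0 < r → r ≤ 1 →
        ((L.image fun i => (cell r (x i), cell r (e i))).card : ℝ) ≤ C * r ^ (-(3 + s))) →
      (n : ℝ) ^ (4 - ε) ≤ 1296 * Q.card := by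
  obtain ⟨η, hη, N1, hN1⟩ := hP ε hε
  obtain ⟨Cl, hCl, hl⟩ := loc 3
  obtain ⟨N2, hN2⟩ := big Cl (half_pos hη)
  obtain ⟨s, hs, hs2⟩ : ∃ s > (0 : ℝ), η = s * 3 * 4 + η / 2 := ⟨η / 24, by positivity, by ring⟩
  refine ⟨s, hs, fun C => ?_⟩
  obtain ⟨N3, hN3⟩ := big (64 + 2 * |C|) hs
  refine ⟨max N1 (max N2 N3), fun n hn L x e Q hb hi hL hc hS => ?_⟩
  simp only [max_le_iff] at hn
  obtain ⟨n2, a1, -⟩ := hN3 n hn.2.2
  have n0 : (0 : ℝ) < n := by linarith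
  have n1 : (1 : ℝ) ≤ n := by linarith
  have hn0 : 0 < n := Nat.cast_pos.1 n0
  have c0 := abs_nonneg C
  have c1 := le_abs_self C
  have e1 : (n : ℝ) ^ (-s) = ((n : ℝ) ^ s)⁻¹ := Real.rpow_neg n0.le s
  have e2 : (((n : ℝ) ^ s) ^ 3) ^ 4 = (n : ℝ) ^ (s * 3 * 4) := by
    rw [← Real.rpow_natCast, ← Real.rpow_natCast, ← Real.rpow_mul n0.le, ← Real.rpow_mul n0.le]
    norm_num
  have e3 : ∀ r : ℝ, 1 / (n : ℝ) ≤ r → r ^ (-(3 + s)) ≤ (n : ℝ) ^ s / r ^ 3 := fun r hr => by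
    have r0 : 0 < r := (one_div_pos.2 n0).trans_le hr
    rw [Real.rpow_neg r0.le, Real.rpow_add r0, mul_inv, div_eq_inv_mul, Real.rpow_ofNat,
      ← Real.inv_rpow r0.le]
    exact mul_le_mul_of_nonneg_left (Real.rpow_le_rpow (inv_pos.2 r0).le
      ((inv_le_comm₀ r0 n0).2 (by rwa [← one_div])) hs.le) (by positivity)
  rw [e1] at hc
  generalize (n : ℝ) ^ s = T at *
  have t0 : 0 < T := by linarith
  have t1 : T ≤ T ^ 2 := le_self_pow₀ (by linarith) two_ne_zero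
  have t2 : T ^ 2 ≤ T ^ 3 := pow_le_pow_right₀ (by linarith) (by norm_num)
  have hp := pre_fd hn0 hb hi hL (inv_pos.2 t0) hc (K := T ^ 3) (by linarith) (by
    have : T ^ 3 * T⁻¹ = T * T := by field_simp
    rw [this, ← mul_assoc]
    exact mul_le_mul_of_nonneg_right (by linarith) t0.le)
  obtain ⟨L', E', hE, hG⟩ := hl hp n1 n1 (by linarith) fun r h1 h2 => by
    have r0 : 0 < r := (one_div_pos.2 n0).trans_le h1
    refine (hS r r0 h2).trans ((mul_le_mul (c1.trans (by linarith : |C| ≤ T)) (e3 r h1)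
      (Real.rpow_nonneg r0.le _) t0.le).trans ?_)
    rw [← mul_div_assoc]
    exact div_le_div_of_nonneg_right (by linarith [sq T]) (by positivity)
  have hK : Cl * (T ^ 3) ^ 4 * (Real.logb 2 n + 2) ≤ (n : ℝ) ^ η := by
    rw [hs2, Real.rpow_add n0, ← e2, mul_right_comm, mul_comm]
    exact mul_le_mul_of_nonneg_left (hN2 n hn.2.1).2.2 (by positivity)
  have l0 : 0 ≤ Real.logb 2 n := Real.logb_nonneg one_lt_two n1
  have h1 := hN1 n hn.1 _ (hG.mono n0 n0 (by positivity) hK)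
  refine le_trans (le_of_eq ?_) (h1.trans (cnt_fd hn0 (fun i h => (hb i h).2) hE))
  norm_num

end Vale.Agent.P127
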