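import Vale.Agent.P127.Final.Defs

/-! # P127 Final/GeoA: slopes and graph coordinates.  Helper names end with `_fa`.
`exists_slope`: normalise `v = !₂[p 0, p 1, p 2, 1]`, `1 ≤ ‖v‖ ≤ 2` (`EuclideanSpace.norm_eq`, `Fin.sum_univ_four`).
`line_lip`: apply the first component of `lineOf` to `b = EuclideanSpace.single 3 1`: `u = e 3 • e`, `‖u - u'‖ ≤ ρ`, `u 3 = e 3 ^ 2 ≥ 1 / 4`,
`u j = p j * u 3`, so `(p j - p' j) * u 3 = (u j - u' j) - p' j * (u 3 - u' 3)`.  With `f`, `f'` the second components (feet),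
`yy h a p = yy h f p`, `‖f'‖ ≤ 2 M`, `yy h f p j - yy h f' p' j = (f j - f' j) - (f 3 - f' 3) p j + (h - f' 3) (p j - p' j)`.
`seg_phi`: `τ = (h + t / 4 - a 3) / e 3`. -/

namespace Vale.Agent.P127

theorem coord_fa {p : V 3} {c : ℝ} (hp : ‖p‖ ≤ c) (j : Fin 3) : |p j| ≤ c :=
  (norm_le_pi_norm p j).trans hp

theorem coord4_fa {v : E4} {c : ℝ} (hv : ‖v‖ ≤ c) (j : Fin 4) : |v j| ≤ c :=
  (PiLp.norm_apply_le v j).trans hv

theorem mul_fa {x y a b : ℝ} (hx : |x| ≤ a) (hy : |y| ≤ b) : |x * y| ≤ a * b := by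
  rw [abs_mul]
  exact mul_le_mul hx hy (abs_nonneg _) ((abs_nonneg _).trans hx)

theorem foot_fa {e : E4} {p : V 3} (he : Slope e p) (h : ℝ) (a : E4) :
    yy h a p = yy h (lineOf a e).2 p := by
  funext j
  simp only [yy, lineOf, PiLp.sub_apply, PiLp.smul_apply, smul_eq_mul, he.2.2.2 j]
  ring

theorem dir_fa (a e : E4) (j : Fin 4) :
    (lineOf a e).1 (EuclideanSpace.single 3 1) j = e 3 * e j := by
  simp [lineOf, EuclideanSpace.inner_single_right]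

theorem exists_slope {p : V 3} (hp : ‖p‖ ≤ 1) :
    ∃ e : Metric.sphere (0 : E4) 1, Slope e p := by
  obtain ⟨v, hv⟩ : ∃ v : E4, v = !₂[p 0, p 1, p 2, 1] := ⟨_, rfl⟩
  have h3 : v 3 = 1 := by simp [hv]
  have hj : ∀ j : Fin 3, v j.castSucc = p j := fun j => by
    fin_cases j <;> simp [hv]
  have h1 : 1 ≤ ‖v‖ := by
    have := coord4_fa (le_refl ‖v‖) 3
    rwa [h3, abs_one] at this
  have h2 : ‖v‖ ≤ 2 := by
    have h4 : ∀ j, p j ^ 2 ≤ 1 := fun j => (sq_le_one_iff_abs_le_one _).2 (coord_fa hp j)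
    rw [EuclideanSpace.norm_eq, Real.sqrt_le_iff, Fin.sum_univ_four]
    have e0 : v 0 = p 0 := hj 0
    have e1 : v 1 = p 1 := hj 1
    have e2 : v 2 = p 2 := hj 2
    simp only [Real.norm_eq_abs, sq_abs, e0, e1, e2, h3]
    exact ⟨zero_le_two, by linarith [h4 0, h4 1, h4 2]⟩
  have h0 : 0 < ‖v‖ := by linarith
  have h5 : ‖‖v‖⁻¹ • v‖ = 1 := norm_smul_inv_norm (𝕜 := ℝ) (norm_pos_iff.1 h0)
  refine ⟨⟨‖v‖⁻¹ • v, mem_sphere_zero_iff_norm.2 h5⟩, h5, hp, ?_, fun j => ?_⟩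
  · simp only [PiLp.smul_apply, smul_eq_mul, h3, mul_one]
    rw [one_div]
    exact inv_anti₀ h0 h2
  · simp only [PiLp.smul_apply, smul_eq_mul, h3, hj]
    ring

theorem line_lip {a a' e e' : E4} {p p' : V 3} (he : Slope e p) (he' : Slope e' p') {h M ρ : ℝ}
    (ha : ‖a'‖ ≤ M) (hh : |h| ≤ M) (hd : dist (lineOf a e) (lineOf a' e') ≤ ρ) :
    ‖p - p'‖ ≤ 8 * ρ ∧ ‖yy h a p - yy h a' p'‖ ≤ (2 + 24 * M) * ρ := by
  have hρ : 0 ≤ ρ := dist_nonneg.trans hd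
  have hM : 0 ≤ M := (abs_nonneg _).trans hh
  rw [Prod.dist_eq, max_le_iff, dist_eq_norm, dist_eq_norm] at hd
  have hu : ∀ j, |e 3 * e j - e' 3 * e' j| ≤ ρ := fun j => by
    have h1 := ((lineOf a e).1 - (lineOf a' e').1).le_of_opNorm_le hd.1
      (EuclideanSpace.single 3 1)
    rw [show ‖(EuclideanSpace.single 3 1 : E4)‖ = 1 by simp, mul_one] at h1
    have h2 := coord4_fa h1 j
    rwa [_root_.sub_apply, PiLp.sub_apply, dir_fa, dir_fa] at h2
  have hp : ∀ j, |p j - p' j| ≤ 8 * ρ := fun j => by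
    have h1 := hu j.castSucc
    rw [he.2.2.2 j, he'.2.2.2 j] at h1
    have h2 := mul_fa (coord_fa he'.2.1 j) (hu 3)
    have h3 : (p j - p' j) * (e 3 * e 3) = e 3 * (p j * e 3) - e' 3 * (p' j * e' 3) -
        p' j * (e 3 * e 3 - e' 3 * e' 3) := by ring
    have h4 : 1 / 4 ≤ e 3 * e 3 := by nlinarith [he.2.2.1]
    have h5 : |p j - p' j| * (e 3 * e 3) ≤ 2 * ρ := by
      rw [← abs_of_nonneg (mul_self_nonneg (e 3)), ← abs_mul, h3]
      exact (abs_sub _ _).trans (by linarith)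
    nlinarith [abs_nonneg (p j - p' j)]
  refine ⟨(pi_norm_le_iff_of_nonneg (by positivity)).2 hp,
    (pi_norm_le_iff_of_nonneg (by positivity)).2 fun j => ?_⟩
  have hf : ‖(lineOf a' e').2‖ ≤ 2 * M := by
    refine (norm_sub_le _ _).trans ?_
    have h1 := norm_inner_le_norm (𝕜 := ℝ) e' a'
    rw [norm_smul, he'.1] at *
    linarith
  rw [foot_fa he h a, foot_fa he' h a']
  generalize (lineOf a e).2 = f at hd
  generalize (lineOf a' e').2 = f' at hd hf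
  have h1 : ∀ i, |f i - f' i| ≤ ρ := coord4_fa hd.2
  have h2 := mul_fa (h1 3) (coord_fa he.2.1 j)
  have h3 : |h - f' 3| ≤ 3 * M := (abs_sub _ _).trans (by linarith [coord4_fa hf 3])
  have h4 := mul_fa h3 (hp j)
  have h5 : (yy h f p - yy h f' p') j = f j.castSucc - f' j.castSucc - (f 3 - f' 3) * p j +
      (h - f' 3) * (p j - p' j) := by
    simp only [yy, Pi.sub_apply]
    ring
  rw [h5, Real.norm_eq_abs]
  refine (abs_add_le _ _).trans ((add_le_add (abs_sub _ _) le_rfl).trans ?_)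
  linarith [h1 j.castSucc]

theorem phi_lip (h : ℝ) (c : V 3) : LipschitzWith 4 (Phi h c) := by
  refine LipschitzWith.of_dist_le_mul fun w w' => ?_
  have h1 : ∀ (i : Fin 4) (b : ℝ), dist (4 * (w i - b)) (4 * (w' i - b)) ≤ 4 * dist w w' := by
    intro i b
    have h2 : |w i - w' i| ≤ dist w w' := coord4_fa (dist_eq_norm w w').ge i
    rw [Real.dist_eq, show 4 * (w i - b) - 4 * (w' i - b) = 4 * (w i - w' i) by ring, abs_mul,
      abs_of_pos four_pos]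
    linarith
  rw [Prod.dist_eq]
  exact max_le (h1 3 h) ((dist_pi_le_iff (by positivity)).2 fun j => h1 _ _)

theorem seg_phi {a e : E4} {p : V 3} (he : Slope e p) {h : ℝ} (h1 : a 3 ≤ h) (h2 : h ≤ a 3 + 1 / 4)
    (c : V 3) {t : ℝ} (ht : t ∈ Set.Icc (0 : ℝ) 1) : ∃ τ ∈ Set.Icc (0 : ℝ) 1,
      Phi h c (a + τ • e) = (t, (4 : ℝ) • (yy h a p - c) + t • p) := by
  have h0 : 0 < e 3 := by linarith [he.2.2.1]
  refine ⟨(h + t / 4 - a 3) / e 3, ⟨div_nonneg (by linarith [ht.1]) h0.le,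
    (div_le_one h0).2 (by linarith [ht.2, he.2.2.1])⟩, Prod.ext ?_ (funext fun j => ?_)⟩
  · simp only [Phi, PiLp.add_apply, PiLp.smul_apply, smul_eq_mul]
    field_simp
    ring
  · simp only [Phi, yy, PiLp.add_apply, PiLp.smul_apply, smul_eq_mul, Pi.add_apply, Pi.smul_apply,
      Pi.sub_apply, he.2.2.2 j]
    field_simp
    ring

end Vale.Agent.P127
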